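import Crest.Agent.Lib.RAAG.Cube
import Crest.Agent.Lib.CW2.Cells

/-! The CW structure of the cube complex. -/

set_option autoImplicit false

open Set Function Metric

namespace Crest.Agent.Lib.RAAG

variable {V : Type} [Fintype V] {Γ : SimpleGraph V} {B : Type} [Group B] {D : CD Γ B}

/-- cliques with `n` elements -/
abbrev ClqN (Γ : SimpleGraph V) (n : ℕ) := {σ : Clq Γ // σ.1.card = n}

open Classical in
/-- coordinates of the standard cube -/
noncomputable def crd {n : ℕ} (σ : ClqN Γ n) (x : Fin n → ℝ) : V → ℝ :=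
  fun v => if h : v ∈ σ.1.1 then (x (Finset.equivFinOfCardEq σ.2 ⟨v, h⟩) + 1) / 2 else 0

omit [Fintype V] in
theorem continuous_crd {n : ℕ} (σ : ClqN Γ n) : Continuous (crd σ) := by
  refine continuous_pi fun v => ?_
  unfold crd
  split_ifs
  · fun_prop
  · exact continuous_const

omit [Fintype V] in
theorem crd_apply {n : ℕ} (σ : ClqN Γ n) (x : Fin n → ℝ) (i : Fin n) :
    crd σ x ((Finset.equivFinOfCardEq σ.2).symm i) = (x i + 1) / 2 := by
  simp [crd]

variable (D) in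
/-- the characteristic maps -/
noncomputable def chi (n : ℕ) (c : B × ClqN Γ n) (x : Fin n → ℝ) : Pt D :=
  cube D c.1 c.2.1 (crd c.2 x)

theorem continuous_chi (n : ℕ) (c : B × ClqN Γ n) : Continuous (chi D n c) :=
  (continuous_cube _ _).comp (continuous_crd _)

/-- the open cell containing a point -/
noncomputable def tag (x : Pt D) : Σ n, B × ClqN Γ n := ⟨x.supp.1.card, x.b, x.supp, rfl⟩

theorem chi_ball {n : ℕ} (c : B × ClqN Γ n) {x : Fin n → ℝ} (hx : x ∈ ball (0 : Fin n → ℝ) 1) :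
    (chi D n c x).b = c.1 ∧ (chi D n c x).t = crd c.2 x ∧ (chi D n c x).supp = c.2.1 := by
  rw [CW2.mem_ball_iff] at hx
  have h1 : ∀ v, crd c.2 x v ∈ Ico (0 : ℝ) 1 ∧ (crd c.2 x v ≠ 0 ↔ v ∈ c.2.1.1) := by
    intro v
    unfold crd
    split_ifs with h
    · have := abs_lt.1 (hx (Finset.equivFinOfCardEq c.2.2 ⟨v, h⟩))
      exact ⟨⟨by linarith, by linarith⟩, iff_of_true (by linarith) h⟩
    · exact ⟨⟨le_rfl, zero_lt_one⟩, iff_of_false (by simp) h⟩
  let y : Pt D := ⟨c.1, crd c.2 x, fun v => (h1 v).1, c.2.1.2.subset fun v hv => (h1 v).2.1 hv⟩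
  have h2 : y.supp = c.2.1 := Subtype.ext (Finset.ext fun v => Pt.mem_supp.trans (h1 v).2)
  have h3 : chi D n c x = y := by
    rw [← cube_self y, h2]; rfl
  rw [h3]
  exact ⟨rfl, rfl, h2⟩

theorem tag_chi {n : ℕ} (c : B × ClqN Γ n) {x : Fin n → ℝ} (hx : x ∈ ball (0 : Fin n → ℝ) 1) :
    tag (chi D n c x) = ⟨n, c⟩ := by
  obtain ⟨h1, -, h2⟩ := chi_ball (D := D) c hx
  obtain ⟨b, σ, rfl⟩ := c
  generalize chi D _ _ x = y at h1 h2
  obtain rfl : y.b = b := h1
  obtain rfl : y.supp = σ := h2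
  rfl

theorem injOn_chi (n : ℕ) (c : B × ClqN Γ n) : InjOn (chi D n c) (ball 0 1) := by
  intro x hx y hy h
  have h1 : crd c.2 x = crd c.2 y := by
    rw [← (chi_ball (D := D) c hx).2.1, h, (chi_ball c hy).2.1]
  funext i
  have := congrFun h1 ((Finset.equivFinOfCardEq c.2.2).symm i)
  rw [crd_apply, crd_apply] at this
  linarith

theorem exists_crd {n : ℕ} (σ : ClqN Γ n) (s : V → ℝ) :
    ∃ x : Fin n → ℝ, (∀ i, x i = 2 * clamp (s ((Finset.equivFinOfCardEq σ.2).symm i)) - 1) ∧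
      ∀ g, chi D n (g, σ) x = cube D g σ.1 s := by
  refine ⟨_, fun _ => rfl, fun g => ?_⟩
  simp only [chi, cube]
  congr 1
  funext v
  unfold cut crd
  split_ifs with h
  · simp [clamp_of_mem (clamp_mem _)]
  · rfl

theorem exists_chi (p : Pt D) :
    ∃ x ∈ ball (0 : Fin (tag p).1 → ℝ) 1, chi D _ (tag p).2 x = p := by
  obtain ⟨x, h1, h2⟩ := exists_crd (D := D) (tag p).2.2 p.t
  refine ⟨x, CW2.mem_ball_iff.2 fun i => ?_, (h2 _).trans (cube_self p)⟩
  set v := (Finset.equivFinOfCardEq (tag p).2.2.2).symm i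
  have h3 := p.mem v
  have h4 : p.t v ≠ 0 := Pt.mem_supp.1 v.2
  rw [h1, clamp_of_mem (Ico_subset_Icc_self h3), abs_lt]
  exact ⟨by linarith [lt_of_le_of_ne h3.1 h4.symm], by linarith [h3.2]⟩

theorem tag_sphere {n : ℕ} (c : B × ClqN Γ n) {x : Fin n → ℝ}
    (hx : x ∈ sphere (0 : Fin n → ℝ) 1) : (tag (chi D n c x)).1 < n := by
  obtain ⟨i, hi⟩ := CW2.exists_of_mem_sphere hx
  conv_rhs => rw [← c.2.2]
  refine Finset.card_lt_card ⟨fun v hv => ?_, fun h => ?_⟩
  · exact support_cut _ _ (support_fract_subset _ (Pt.mem_supp.1 hv))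
  · have h1 := Pt.mem_supp.1 (h ((Finset.equivFinOfCardEq c.2.2).symm i).2)
    apply h1
    simp only [chi, cube, Q, cut, if_pos ((Finset.equivFinOfCardEq c.2.2).symm i).2, crd_apply]
    rcases (abs_eq zero_le_one).1 hi with h | h <;> rw [h] <;> norm_num [clamp]

theorem exists_cw (D : CD Γ B) {d : ℕ} (hd : ∀ σ : Clq Γ, σ.1.card ≤ d) :
    ∃ _ : Topology.CWComplex (univ : Set (Pt D)),
      ∀ n : ℕ, d < n → IsEmpty (Topology.RelCWComplex.cell (univ : Set (Pt D)) n) := by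
  classical
  refine ⟨
    { cell := fun n => B × ClqN Γ n
      map := fun n c => (injOn_chi n c).toPartialEquiv (chi D n c) _
      source_eq := fun _ _ => rfl
      continuousOn := fun n c => (continuous_chi n c).continuousOn
      continuousOn_symm := fun n c => CW2.continuousOn_symm_of_ball _ (continuous_chi n c) _ ?_
      pairwiseDisjoint' := ?_
      mapsTo' := fun n c => ?_
      closed' := fun A _ hA => ?_
      union' := ?_ }, fun n hn => ⟨fun c => ?_⟩⟩
  · rintro x hx ⟨y, hy, h⟩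
    have h1 := tag_sphere (D := D) c hx
    rw [← h, tag_chi c hy] at h1
    exact lt_irrefl _ h1
  · rintro ⟨n, i⟩ - ⟨m, j⟩ - hne
    refine disjoint_left.2 ?_
    rintro _ ⟨x, hx, rfl⟩ ⟨y, hy, h⟩
    exact hne ((tag_chi i hx).symm.trans ((congrArg tag h).symm.trans (tag_chi j hy)))
  · refine ⟨fun m => (Finset.univ : Finset ((V → Bool) × ClqN Γ m)).image
      fun p => (c.1 * mono D.f fun v => if p.1 v then 1 else 0, p.2), fun x hx => ?_⟩
    obtain ⟨y, hy, h⟩ := exists_chi (chi D n c x)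
    refine mem_iUnion₂.2 ⟨_, tag_sphere c hx, mem_iUnion₂.2 ⟨_, ?_, y, ball_subset_closedBall hy, h⟩⟩
    refine Finset.mem_image.2 ⟨(fun v => decide (cut c.2.1.1 (crd c.2 x) v = 1), _),
      Finset.mem_univ _, Prod.ext ?_ rfl⟩
    simp only [tag, chi, cube, Q]
    congr 2
    funext v
    have h1 := cut_mem c.2.1.1 (crd c.2 x) v
    rcases eq_or_lt_of_le h1.2 with h2 | h2
    · simp [h2]
    · simp [h2.ne, (Int.floor_eq_zero_iff.2 ⟨h1.1, h2⟩)]
  · rw [← isOpen_compl_iff]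
    refine isOpen_of_cube fun g σ => ?_
    rw [preimage_compl, isOpen_compl_iff]
    convert (hA _ (g, ⟨σ, rfl⟩)).preimage (continuous_cube g σ) using 1
    ext s
    refine ⟨fun h => ⟨h, ?_⟩, fun h => h.1⟩
    obtain ⟨x, h1, h2⟩ := exists_crd (D := D) ⟨σ, rfl⟩ s
    refine ⟨x, mem_closedBall_zero_iff.2 ((pi_norm_le_iff_of_nonneg zero_le_one).2 fun i => ?_),
      h2 g⟩
    have := clamp_mem (s ((Finset.equivFinOfCardEq (rfl : σ.1.card = _)).symm i))
    rw [h1, Real.norm_eq_abs, abs_le]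
    exact ⟨by linarith [this.1], by linarith [this.2]⟩
  · refine eq_univ_of_forall fun p => ?_
    obtain ⟨y, hy, h⟩ := exists_chi p
    exact mem_iUnion₂.2 ⟨_, _, y, ball_subset_closedBall hy, h⟩
  · have h1 := hd c.2.1
    rw [c.2.2] at h1
    omega

end Crest.Agent.Lib.RAAG
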