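import Mathlib

/-! Right-angled Artin groups: the normal form by pilings. For every element we get its length and
its set of last letters, which is a clique. -/

set_option autoImplicit false

namespace Crest.Agent.Lib.RAAG

/-- `A` is the right-angled Artin group of `Γ` with standard generators `of v`. -/
structure IsRAAG {V A : Type} [Group A] (Γ : SimpleGraph V) (of : V → A) : Prop where
  comm : ∀ u v, Γ.Adj u v → Commute (of u) (of v)
  gen : Subgroup.closure (Set.range of) = ⊤
  lift : ∀ (H : Type) [Group H] (f : V → H), (∀ u v, Γ.Adj u v → Commute (f u) (f v)) →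
    ∃ φ : A →* H, ∀ v, φ (of v) = f v

/-- the commutator relators -/
def rels {V : Type} (Γ : SimpleGraph V) : Set (FreeGroup V) :=
  {r | ∃ u v, Γ.Adj u v ∧
    r = FreeGroup.of u * FreeGroup.of v * (FreeGroup.of u)⁻¹ * (FreeGroup.of v)⁻¹}

theorem isRAAG_presented {V : Type} (Γ : SimpleGraph V) :
    IsRAAG Γ (PresentedGroup.of : V → PresentedGroup (rels Γ)) where
  comm u v h := by
    rw [← commutatorElement_eq_one_iff_commute]
    exact PresentedGroup.one_of_mem (rels := rels Γ) ⟨u, v, h, rfl⟩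
  gen := PresentedGroup.closure_range_of _
  lift H _ f hf := by
    refine ⟨PresentedGroup.toGroup (f := f) ?_, fun s => PresentedGroup.toGroup.of _⟩
    rintro _ ⟨u, v, h, rfl⟩
    simpa [commutatorElement_def] using commutatorElement_eq_one_iff_commute.2 (hf u v h)

/-- A length function together with the signs `d g v` of the last letters: `d g v = 1` if a reduced
word for `g` ends with `v`, `d g v = -1` if one ends with `v⁻¹`, and `d g v = 0` otherwise. -/
structure Desc {V A : Type} [Group A] (Γ : SimpleGraph V) (of : V → A) where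
  len : A → ℕ
  d : A → V → ℤ
  d_mem : ∀ g v, d g v = -1 ∨ d g v = 0 ∨ d g v = 1
  clique : ∀ g u v, d g u ≠ 0 → d g v ≠ 0 → u ≠ v → Γ.Adj u v
  d_adj : ∀ g u v, Γ.Adj u v → d (g * of u) v = d g v
  up : ∀ g v (ε : ℤ), ε = 1 ∨ ε = -1 → d g v ≠ -ε →
    d (g * of v ^ ε) v = ε ∧ len (g * of v ^ ε) = len g + 1 ∧
      ∀ w, w ≠ v → ¬ Γ.Adj v w → d (g * of v ^ ε) w = 0
  down : ∀ g v, d g v ≠ 0 → len (g * of v ^ (-d g v)) + 1 = len g ∧
    d (g * of v ^ (-d g v)) v ≠ -d g v
  eq_one : ∀ g, (∀ v, d g v = 0) → g = 1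
  len_one : len 1 = 0
  d_one : ∀ v, d 1 v = 0

variable {V A : Type} [Group A] {Γ : SimpleGraph V} {of : V → A}

open Classical in
/-- put a letter on top of a piling -/
noncomputable def push (Γ : SimpleGraph V) (v : V) (ε : ℤ) (P : V → List ℤ) : V → List ℤ :=
  fun w => if w = v then ε :: P w else if Γ.Adj v w then P w else 0 :: P w

open Classical in
/-- remove the top letter -/
noncomputable def pop (Γ : SimpleGraph V) (v : V) (P : V → List ℤ) : V → List ℤ :=
  fun w => if Γ.Adj v w then P w else (P w).tail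

theorem push_self (v : V) (ε : ℤ) (P : V → List ℤ) : push Γ v ε P v = ε :: P v := by simp [push]

theorem push_adj {v w : V} (h : Γ.Adj v w) (ε : ℤ) (P : V → List ℤ) : push Γ v ε P w = P w := by
  simp [push, h, h.ne']

theorem push_not_adj {v w : V} (h : ¬ Γ.Adj v w) (h' : w ≠ v) (ε : ℤ) (P : V → List ℤ) :
    push Γ v ε P w = 0 :: P w := by
  simp [push, h, h']

theorem pop_adj {v w : V} (h : Γ.Adj v w) (P : V → List ℤ) : pop Γ v P w = P w := by
  simp [pop, h]

theorem pop_push (v : V) (ε : ℤ) (P : V → List ℤ) : pop Γ v (push Γ v ε P) = P := by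
  funext w
  by_cases h : Γ.Adj v w
  · rw [pop_adj h, push_adj h]
  · by_cases h' : w = v <;> simp [pop, push, h, h']

theorem push_comm {u v : V} (h : Γ.Adj u v) (ε η : ℤ) (P : V → List ℤ) :
    push Γ u ε (push Γ v η P) = push Γ v η (push Γ u ε P) := by
  funext w
  by_cases h1 : w = u
  · subst h1; rw [push_self, push_adj h.symm, push_adj h.symm, push_self]
  by_cases h2 : w = v
  · subst h2; rw [push_self, push_adj h, push_adj h, push_self]
  simp only [push, h1, h2, if_false]
  split_ifs <;> rfl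

/-- the piling `P` represents the element `g` -/
inductive Rep (Γ : SimpleGraph V) (of : V → A) : (V → List ℤ) → A → Prop
  | nil : Rep Γ of (fun _ => []) 1
  | push (v : V) (ε : ℤ) (hε : ε = 1 ∨ ε = -1) (P : V → List ℤ) (g : A) (h : Rep Γ of P g)
      (hd : (P v).headD 0 ≠ -ε) : Rep Γ of (push Γ v ε P) (g * of v ^ ε)

theorem Rep.exists_pop (hc : ∀ u v, Γ.Adj u v → Commute (of u) (of v)) {P : V → List ℤ} {g : A}
    (h : Rep Γ of P g) {v : V} (hv : (P v).headD 0 ≠ 0) :
    ∃ P' g', Rep Γ of P' g' ∧ (P' v).headD 0 ≠ -(P v).headD 0 ∧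
      P = RAAG.push Γ v ((P v).headD 0) P' ∧ g = g' * of v ^ (P v).headD 0 ∧
      ((P v).headD 0 = 1 ∨ (P v).headD 0 = -1) := by
  induction h with
  | nil => simp at hv
  | push w η hη P g h hd ih =>
    by_cases h1 : v = w
    · subst h1
      rw [push_self]
      exact ⟨P, g, h, hd, rfl, rfl, hη⟩
    by_cases h2 : Γ.Adj w v
    · rw [push_adj h2] at hv ⊢
      obtain ⟨P', g', h3, h4, h5, h6, h7⟩ := ih hv
      refine ⟨RAAG.push Γ w η P', g' * of w ^ η, h3.push w η hη _ _ ?_, ?_, ?_, ?_, h7⟩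
      · rwa [h5, push_adj h2.symm] at hd
      · rwa [push_adj h2]
      · rw [← push_comm h2, ← h5]
      · conv_lhs => rw [h6]
        rw [mul_assoc, mul_assoc, ((hc _ _ h2).zpow_zpow _ _).eq]
    · rw [push_not_adj h2 h1] at hv
      simp at hv

open Classical in
/-- multiplication of a piling by a letter -/
noncomputable def step (Γ : SimpleGraph V) (v : V) (ε : ℤ) (P : V → List ℤ) : V → List ℤ :=
  if (P v).headD 0 = -ε then pop Γ v P else push Γ v ε P

theorem step_adj {v w : V} (h : Γ.Adj v w) (ε : ℤ) (P : V → List ℤ) : step Γ v ε P w = P w := by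
  unfold step
  split_ifs
  · exact pop_adj h P
  · exact push_adj h ε P

theorem step_push (v : V) (ε : ℤ) (P : V → List ℤ) : step Γ v (-ε) (push Γ v ε P) = P := by
  rw [step, push_self, if_pos (by simp), pop_push]

theorem Rep.step (hc : ∀ u v, Γ.Adj u v → Commute (of u) (of v)) {P : V → List ℤ} {g : A}
    (h : Rep Γ of P g) (v : V) {ε : ℤ} (hε : ε = 1 ∨ ε = -1) :
    Rep Γ of (step Γ v ε P) (g * of v ^ ε) := by
  unfold RAAG.step
  split_ifs with h1
  · obtain ⟨P', g', h3, -, h5, h6, -⟩ := h.exists_pop hc (v := v) (by omega)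
    rw [h5, pop_push, h6, h1, mul_assoc, ← zpow_add, neg_add_cancel, zpow_zero, mul_one]
    exact h3
  · exact h.push v ε hε _ _ h1

theorem Rep.step_step (hc : ∀ u v, Γ.Adj u v → Commute (of u) (of v)) {P : V → List ℤ} {g : A}
    (h : Rep Γ of P g) (v : V) {ε : ℤ} (hε : ε = 1 ∨ ε = -1) :
    RAAG.step Γ v (-ε) (RAAG.step Γ v ε P) = P := by
  by_cases h1 : (P v).headD 0 = -ε
  · obtain ⟨P', g', -, h4, h5, -, -⟩ := h.exists_pop hc (v := v) (by omega)
    rw [h1] at h4 h5
    have h6 : RAAG.step Γ v ε P = P' := by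
      rw [h5]
      simpa using step_push v (-ε) P'
    rw [h6, RAAG.step, if_neg h4, ← h5]
  · rw [RAAG.step.eq_1 Γ v ε, if_neg h1, step_push]

theorem Rep.step_comm (hc : ∀ u v, Γ.Adj u v → Commute (of u) (of v)) {P : V → List ℤ} {g : A}
    (h : Rep Γ of P g) {u v : V} (huv : Γ.Adj u v) :
    RAAG.step Γ u 1 (RAAG.step Γ v 1 P) = RAAG.step Γ v 1 (RAAG.step Γ u 1 P) := by
  have key : ∀ {P : V → List ℤ} {g : A} (h : Rep Γ of P g) {u v : V} (huv : Γ.Adj u v),
      (P u).headD 0 = -1 → (P v).headD 0 ≠ -1 →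
      RAAG.step Γ u 1 (RAAG.step Γ v 1 P) = RAAG.step Γ v 1 (RAAG.step Γ u 1 P) := by
    intro P g h u v huv h1 h2
    obtain ⟨P', g', -, -, h5, -, -⟩ := h.exists_pop hc (v := u) (by omega)
    rw [h1] at h5
    have h6 := step_push (Γ := Γ) u (-1)
    simp only [neg_neg] at h6
    rw [RAAG.step.eq_1 Γ v 1 P, if_neg h2]
    rw [h5, push_adj huv] at h2
    rw [h5, ← push_comm huv, h6, h6, RAAG.step, if_neg h2]
  by_cases h1 : (P u).headD 0 = -1 <;> by_cases h2 : (P v).headD 0 = -1
  · obtain ⟨P', g', h3, -, h5, -, -⟩ := h.exists_pop hc (v := u) (by omega)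
    rw [h1] at h5
    rw [h5, push_adj huv] at h2
    obtain ⟨P'', g'', -, -, h7, -, -⟩ := h3.exists_pop hc (v := v) (by omega)
    rw [h2] at h7
    have h6 := fun u => step_push (Γ := Γ) u (-1)
    simp only [neg_neg] at h6
    rw [h5, h6, h7, h6, push_comm huv, h6, h6]
  · exact key h huv h1 h2
  · exact (key h huv.symm h2 h1).symm
  · rw [RAAG.step.eq_1 Γ v 1 P, if_neg h2, RAAG.step.eq_1 Γ u 1 P, if_neg h1, RAAG.step,
      RAAG.step, push_adj huv.symm, push_adj huv, if_neg h1, if_neg h2, push_comm huv]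

theorem IsRAAG.exists_piling (H : IsRAAG Γ of) :
    ∃ π : A → V → List ℤ, π 1 = (fun _ => []) ∧ (∀ g, Rep Γ of (π g) g) ∧
      ∀ g v (ε : ℤ), ε = 1 ∨ ε = -1 → π (g * of v ^ ε) = step Γ v ε (π g) := by
  let X := {P : V → List ℤ // ∃ g, Rep Γ of P g}
  let τ : V → Equiv.Perm X := fun v =>
    { toFun := fun P => ⟨step Γ v 1 P.1, P.2.elim fun g h => ⟨_, h.step H.comm v (.inl rfl)⟩⟩
      invFun := fun P => ⟨step Γ v (-1) P.1, P.2.elim fun g h => ⟨_, h.step H.comm v (.inr rfl)⟩⟩
      left_inv := fun P => Subtype.ext (P.2.elim fun g h => h.step_step H.comm v (.inl rfl))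
      right_inv := fun P => Subtype.ext (P.2.elim fun g h => by
        simpa using h.step_step H.comm v (.inr rfl)) }
  obtain ⟨φ, hφ⟩ := H.lift (Equiv.Perm X) (fun v => (τ v)⁻¹) fun u v h =>
    Commute.inv_inv (Equiv.ext fun P => Subtype.ext (P.2.elim fun g hg => hg.step_comm H.comm h))
  let x0 : X := ⟨fun _ => [], 1, Rep.nil⟩
  have hs : ∀ g v (ε : ℤ), ε = 1 ∨ ε = -1 →
      (φ (g * of v ^ ε)⁻¹ x0).1 = step Γ v ε (φ g⁻¹ x0).1 := by
    rintro g v _ (rfl | rfl)
    · rw [zpow_one, mul_inv_rev, map_mul, map_inv, hφ, inv_inv]; rfl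
    · rw [zpow_neg_one, mul_inv_rev, inv_inv, map_mul, hφ]; rfl
  refine ⟨fun g => (φ g⁻¹ x0).1, by simp [x0], fun g => ?_, hs⟩
  have hg : g ∈ Subgroup.closure (Set.range of) := H.gen ▸ Subgroup.mem_top g
  induction hg using Subgroup.closure_induction_right with
  | one => simpa [x0] using Rep.nil
  | mul_right x _ y hy ih =>
    obtain ⟨v, rfl⟩ := hy
    have := ih.step H.comm v (.inl rfl)
    rwa [← hs _ _ _ (.inl rfl), zpow_one] at this
  | mul_inv_cancel x _ y hy ih =>
    obtain ⟨v, rfl⟩ := hy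
    have := ih.step H.comm v (.inr rfl)
    rwa [← hs _ _ _ (.inr rfl), zpow_neg_one] at this

/-- the number of letters of a piling -/
def size [Fintype V] (P : V → List ℤ) : ℕ := ∑ v, ((P v).map Int.natAbs).sum

theorem size_push [Fintype V] (v : V) {ε : ℤ} (hε : ε = 1 ∨ ε = -1) (P : V → List ℤ) :
    size (push Γ v ε P) = size P + 1 := by
  classical
  have h : ∀ w, ((push Γ v ε P w).map Int.natAbs).sum =
      ((P w).map Int.natAbs).sum + if w = v then 1 else 0 := by
    intro w
    unfold push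
    split_ifs
    · rcases hε with rfl | rfl <;> simp [add_comm]
    · rfl
    · simp
  simp [size, h, Finset.sum_add_distrib]

theorem IsRAAG.nonempty_desc [Fintype V] (H : IsRAAG Γ of) : Nonempty (Desc Γ of) := by
  obtain ⟨π, h1, hR, hs⟩ := H.exists_piling
  refine ⟨⟨fun g => size (π g), fun g v => (π g v).headD 0, fun g v => ?_, fun g u v hu hv huv => ?_,
    fun g u v h => ?_, fun g v ε hε hd => ?_, fun g v hd => ?_, fun g hg => ?_, ?_, ?_⟩⟩
  · by_cases h : (π g v).headD 0 = 0
    · exact .inr (.inl h)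
    · obtain ⟨-, -, -, -, -, -, h⟩ := (hR g).exists_pop H.comm h
      tauto
  · obtain ⟨P', -, -, -, h5, -, -⟩ := (hR g).exists_pop H.comm hu
    by_contra h
    rw [h5, push_not_adj h huv.symm] at hv
    simp at hv
  · have := hs g u 1 (.inl rfl)
    rw [zpow_one] at this
    rw [this, step_adj h]
  · rw [hs g v ε hε, step, if_neg hd, push_self, size_push v hε]
    refine ⟨rfl, rfl, fun w hw h => ?_⟩
    rw [push_not_adj h hw]; rfl
  · obtain ⟨P', -, -, h4, h5, -, h7⟩ := (hR g).exists_pop H.comm hd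
    rw [hs g v _ (by omega)]
    have h8 : step Γ v (-(π g v).headD 0) (π g) = P' := by
      conv_lhs => arg 4; rw [h5]
      exact step_push _ _ _
    rw [h8]
    refine ⟨?_, h4⟩
    conv_rhs => rw [h5]
    exact (size_push v h7 P').symm
  · have := hR g
    generalize π g = P at this hg
    cases this with
    | nil => rfl
    | push v ε hε P g h hd =>
      have := hg v
      rw [push_self] at this
      simp at this
      omega
  · simp [h1, size]
  · simp [h1]

end Crest.Agent.Lib.RAAG
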