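import Crest.Agent.Lib.RAAG.Cube
import Crest.Agent.Lib.RAAG.Piling

/-! The cube complex of a right-angled Artin group is contractible: every point flows along the
diagonal of the cube spanned by the last letters of its top vertex. -/

set_option autoImplicit false

open Set Function Topology

namespace Crest.Agent.Lib.RAAG

variable {V : Type} [Fintype V] {Γ : SimpleGraph V} {A : Type} [Group A] {D : CD Γ A}
  (N : Desc Γ D.f)

local notation "I" => unitInterval

namespace Desc

omit [Fintype V] in
theorem isClique (g : A) : Γ.IsClique (support (N.d g)) :=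
  fun u hu v hv h => N.clique g u v hu hv h

omit [Fintype V] in
theorem d_zpow (g : A) {u v : V} (h : Γ.Adj u v) (k : ℤ) : N.d (g * D.f u ^ k) v = N.d g v := by
  induction k using Int.induction_on with
  | zero => simp
  | succ k ih => rw [zpow_add_one, ← mul_assoc, N.d_adj _ _ _ h, ih]
  | pred k ih =>
    rw [← ih, ← N.d_adj _ _ _ h, mul_assoc, ← zpow_add_one, sub_add_cancel]

theorem d_mono (g : A) {n : V → ℤ} {v : V} (h : ∀ u, n u ≠ 0 → Γ.Adj u v) :
    N.d (g * mono D.f n) v = N.d g v := by
  unfold mono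
  generalize (Finset.univ : Finset V).toList = l
  induction l generalizing g with
  | nil => simp
  | cons u l ih =>
    rw [List.map_cons, List.prod_cons, ← mul_assoc, ih]
    by_cases hu : n u = 0
    · simp [hu]
    · exact N.d_zpow g (h u hu) _

theorem d_mono' (g : A) {σ : Set V} (hσ : Γ.IsClique σ) {n : V → ℤ} (hn : support n ⊆ σ) {v : V}
    (hv : v ∈ σ) : N.d (g * mono D.f n) v = N.d (g * D.f v ^ n v) v := by
  classical
  have h1 : n = Pi.single v (n v) + update n v 0 := by
    funext u
    by_cases h : u = v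
    · subst h; simp
    · simp [h]
  have h2 : ∀ u, update n v 0 u ≠ 0 → u ≠ v ∧ u ∈ σ := fun u hu => by
    by_cases h : u = v
    · subst h; simp at hu
    · exact ⟨h, hn (by simpa [h] using hu)⟩
  conv_lhs => rw [h1]
  rw [D.mono_add hσ (Pi.support_single_subset.trans (singleton_subset_iff.2 hv))
    (fun u hu => (h2 u hu).2), mono_single, ← mul_assoc,
    N.d_mono _ fun u hu => hσ (h2 u hu).2 hv (h2 u hu).1]

omit [Fintype V] in
theorem eq_one_of_len {g : A} (h : N.len g = 0) : g = 1 :=
  N.eq_one g fun v => by_contra fun hv => by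
    have := (N.down g v hv).1
    omega

/-- the point of the descending cube of `g` with coordinates `r` -/
noncomputable def pt (g : A) (r : V → ℝ) : Pt D :=
  Q D g (fun v => -(N.d g v * clamp (r v)))
    ((N.isClique g).subset fun v hv => mem_support.2 fun h => hv (by simp [h]))

/-- the base point -/
def base (D : CD Γ A) : Pt D := ⟨1, 0, fun _ => ⟨le_rfl, zero_lt_one⟩, by simp⟩

theorem pt_one (r : V → ℝ) : N.pt 1 r = base D := by
  rw [← Q_self (base D)]
  simp only [pt, N.d_one, Int.cast_zero, zero_mul, neg_zero]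
  rfl

theorem pt_congr (g : A) {r r' : V → ℝ} (h : ∀ v, N.d g v ≠ 0 → clamp (r v) = clamp (r' v)) :
    N.pt g r = N.pt g r' := by
  unfold pt
  congr 1
  funext v
  by_cases hv : N.d g v = 0
  · simp [hv]
  · rw [h v hv]

theorem continuous_pt (g : A) : Continuous (N.pt g) := by
  classical
  let σ : Clq Γ := ⟨Finset.univ.filter fun v => N.d g v ≠ 0,
    (N.isClique g).subset fun v hv => by simpa using hv⟩
  let n : V → ℤ := fun v => if N.d g v = 1 then -1 else 0
  have : N.pt g = fun r => cube D (g * mono D.f n) σ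
      fun v => if N.d g v = 1 then 1 - clamp (r v) else clamp (r v) := by
    funext r
    refine Q_shift σ.2 g (support_cut _ _) (fun v hv => ?_) (fun v => ?_) _
    · have : N.d g v = 1 := by_contra fun h => hv (if_neg h)
      simp [σ, this]
    · have h1 := clamp_mem (r v)
      have h2 : clamp (1 - clamp (r v)) = 1 - clamp (r v) :=
        clamp_of_mem ⟨by linarith [h1.2], by linarith [h1.1]⟩
      rcases N.d_mem g v with h | h | h <;> simp [cut, σ, n, h, clamp_of_mem h1, h2]
      ring
  rw [this]
  refine (continuous_cube _ _).comp (continuous_pi fun v => ?_)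
  have := continuous_clamp.comp (continuous_apply (A := fun _ : V => ℝ) v)
  split_ifs
  · exact continuous_const.sub this
  · exact this

open Classical in
/-- the top vertex of the cube with base `b` and directions `σ` -/
noncomputable def top (b : A) (σ : Set V) : A :=
  b * mono D.f fun v => if v ∈ σ ∧ N.d b v ≠ -1 then 1 else 0

open Classical in
/-- coordinates seen from the top vertex -/
noncomputable def rr (b : A) (σ : Set V) (s : V → ℝ) : V → ℝ :=
  fun v => if v ∈ σ then (if N.d b v = -1 then s v else 1 - s v) else 0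

theorem d_top (b : A) {σ : Set V} (hσ : Γ.IsClique σ) {v : V} (hv : v ∈ σ) :
    N.d (N.top b σ) v = if N.d b v = -1 then -1 else 1 := by
  rw [top, N.d_mono' b hσ (fun u hu => by_contra fun h => hu (if_neg fun h' => h h'.1)) hv]
  by_cases h : N.d b v = -1
  · simp [h]
  · rw [if_pos ⟨hv, h⟩, if_neg h]
    exact (N.up b v 1 (.inl rfl) h).1

theorem Q_eq_pt (b : A) {σ : Set V} (hσ : Γ.IsClique σ) {s : V → ℝ} (hs : support s ⊆ σ)
    (hs' : ∀ v, s v ∈ Icc (0 : ℝ) 1) :
    Q D b s (hσ.subset hs) = N.pt (N.top b σ) (N.rr b σ s) := by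
  refine Q_shift hσ b (fun v hv => by_contra fun h => hv ?_)
    (fun u hu => by_contra fun h => hu (if_neg fun h' => h h'.1)) (fun v => ?_) _
  · simp [rr, h, clamp]
  · by_cases hv : v ∈ σ
    · have h1 := hs' v
      have h2 : clamp (1 - s v) = 1 - s v := clamp_of_mem ⟨by linarith [h1.2], by linarith [h1.1]⟩
      rw [N.d_top b hσ hv]
      by_cases h : N.d b v = -1 <;> simp [rr, hv, h, clamp_of_mem h1, h2]
    · have : s v = 0 := by_contra fun h => hv (hs h)
      simp [rr, hv, this, clamp]

/-- the top vertex of a point -/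
noncomputable def tp (x : Pt D) : A := N.top x.b (support x.t)

/-- the coordinates of a point seen from its top vertex -/
noncomputable def rp (x : Pt D) : V → ℝ := N.rr x.b (support x.t) x.t

theorem pt_tp (x : Pt D) : N.pt (N.tp x) (N.rp x) = x :=
  (N.Q_eq_pt x.b x.cl subset_rfl fun v => Ico_subset_Icc_self (x.mem v)).symm.trans (Q_self x)

omit [Fintype V] in
theorem rp_mem (x : Pt D) (v : V) : N.rp x v ∈ Ico (0 : ℝ) 1 := by
  have h := x.mem v
  unfold rp rr
  split_ifs with h1 h2
  · exact h
  · exact ⟨by linarith [h.2], by linarith [lt_of_le_of_ne h.1 (Ne.symm h1)]⟩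
  · exact ⟨le_rfl, zero_lt_one⟩

/-- normalised coordinates -/
noncomputable def nm (g : A) (r : V → ℝ) : V → ℝ :=
  fun v => if N.d g v = 0 then 0 else clamp (r v)

omit [Fintype V] in
theorem nm_mem (g : A) (r : V → ℝ) (v : V) : N.nm g r v ∈ Icc (0 : ℝ) 1 := by
  unfold nm
  split_ifs
  · exact ⟨le_rfl, zero_le_one⟩
  · exact clamp_mem _

omit [Fintype V] in
theorem continuous_nm (g : A) : Continuous (N.nm g) := by
  refine continuous_pi fun v => ?_
  unfold nm
  split_ifs
  · exact continuous_const
  · exact continuous_clamp.comp (continuous_apply v)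

theorem pt_nm (g : A) (r : V → ℝ) : N.pt g (N.nm g r) = N.pt g r :=
  N.pt_congr g fun v hv => by rw [nm, if_neg hv, clamp_of_mem (clamp_mem _)]

theorem tp_pt (g : A) {r : V → ℝ} (hr : ∀ v, N.nm g r v < 1) :
    N.tp (N.pt g r) = g ∧ N.rp (N.pt g r) = N.nm g r := by
  classical
  have h1 : ∀ v, ⌊-(N.d g v * clamp (r v))⌋ = (if N.d g v = 1 ∧ N.nm g r v ≠ 0 then -1 else 0) ∧
      Int.fract (-(N.d g v * clamp (r v))) =
        if N.d g v = 1 ∧ N.nm g r v ≠ 0 then 1 - N.nm g r v else N.nm g r v := by
    intro v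
    have h2 := hr v
    have h3 := clamp_mem (r v)
    rcases N.d_mem g v with h | h | h
    · simp only [nm, h] at h2 ⊢
      simp at h2 ⊢
      exact ⟨h3.1, h2⟩
    · simp [nm, h]
    · simp only [nm, h] at h2 ⊢
      by_cases h4 : clamp (r v) = 0
      · simp [h4]
      · have h5 := lt_of_le_of_ne h3.1 (Ne.symm h4)
        simp at h2
        have h6 : ⌊-clamp (r v)⌋ = -1 := Int.floor_eq_iff.2 ⟨by simp; linarith, by simpa using h5⟩
        simp [h4, h6, Int.fract]
        ring
  let n : V → ℤ := fun v => if N.d g v = 1 ∧ N.nm g r v ≠ 0 then -1 else 0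
  have hn : support n ⊆ support (N.d g) := fun v hv h => hv (if_neg fun h' => by omega)
  have hb : (N.pt g r).b = g * mono D.f n := by
    simp only [pt, Q, (h1 _).1, n]
  have ht : ∀ v, (N.pt g r).t v =
      if N.d g v = 1 ∧ N.nm g r v ≠ 0 then 1 - N.nm g r v else N.nm g r v := fun v => (h1 v).2
  have hs : ∀ v, v ∈ support (N.pt g r).t ↔ N.nm g r v ≠ 0 := by
    intro v
    rw [mem_support, ht]
    split_ifs with h
    · exact iff_of_true (by linarith [hr v]) h.2
    · rfl
  have hd : ∀ v, N.nm g r v ≠ 0 → (N.d (N.pt g r).b v ≠ -1 ↔ N.d g v = 1) := by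
    intro v hv
    have h2 : N.d g v ≠ 0 := fun h => hv (if_pos h)
    rw [hb, N.d_mono' g (N.isClique g) hn h2]
    by_cases h : N.d g v = 1
    · have := (N.down g v h2).2
      rw [h] at this
      simpa [n, h, hv] using this
    · have h3 : N.d g v = -1 := by have := N.d_mem g v; omega
      simp [n, h3]
  constructor
  · have h3 : (fun v => if v ∈ support (N.pt g r).t ∧ N.d (N.pt g r).b v ≠ -1 then (1 : ℤ) else 0)
        = -n := by
      funext v
      by_cases hv : N.nm g r v = 0
      · simp [hs, n, hv]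
      · simp only [hs, hd v hv, n, Pi.neg_apply, and_comm]
        split_ifs <;> rfl
    rw [tp, top]
    have h4 : (N.pt g r).b * mono D.f (-n) = g := by
      rw [hb, mul_assoc, ← D.mono_add (N.isClique g) hn (by simpa using hn), add_neg_cancel,
        mono_zero, mul_one]
    rw [← h3] at h4
    convert h4
  · funext v
    by_cases hv : N.nm g r v = 0
    · simp [rp, rr, hs, hv]
    · have h2 := hd v hv
      rw [rp, rr, if_pos ((hs v).2 hv), ht]
      by_cases h : N.d g v = 1
      · rw [if_neg (h2.2 h), if_pos ⟨h, hv⟩, sub_sub_cancel]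
      · rw [if_pos (not_not.1 (mt h2.1 h)), if_neg fun h' => h h'.1]

open Classical in
theorem pt_face (g : A) {r : V → ℝ} {v : V} (hv : N.d g v ≠ 0) (hr : clamp (r v) = 1) :
    N.pt g r = N.pt (g * D.f v ^ (-N.d g v))
      fun w => if w ≠ v ∧ N.d g w ≠ 0 then r w else 0 := by
  rw [← mono_single]
  have h0 : clamp 0 = 0 := by simp [clamp]
  refine Q_shift (N.isClique g) g (fun w hw h => hw ?_)
    (Pi.support_single_subset.trans (singleton_subset_iff.2 hv)) (fun w => ?_) _
  · simp [h, h0]
  · by_cases h : w = v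
    · subst h; simp [hr, h0]
    by_cases h' : N.d g w = 0
    · simp [h, h', h0]
    · rw [mono_single, N.d_zpow g (N.clique g v w hv h' (Ne.symm h))]
      simp [h, h']

theorem len_tp_le (g : A) (r : V → ℝ) : N.len (N.tp (N.pt g r)) ≤ N.len g ∧
    ((∃ v, N.nm g r v = 1) → N.len (N.tp (N.pt g r)) < N.len g) := by
  induction h : N.len g using Nat.strong_induction_on generalizing g r with
  | _ n ih =>
    subst h
    have key : (∃ v, N.nm g r v = 1) → N.len (N.tp (N.pt g r)) < N.len g := by
      rintro ⟨v, hv⟩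
      have h1 : N.d g v ≠ 0 := fun h => by simp [nm, h] at hv
      have h2 := (N.down g v h1).1
      rw [N.pt_face g h1 (by simpa [nm, h1] using hv)]
      exact (ih _ (by omega) _ _ rfl).1.trans_lt (by omega)
    refine ⟨?_, key⟩
    by_cases h : ∃ v, N.nm g r v = 1
    · exact (key h).le
    · rw [(N.tp_pt g fun v => lt_of_le_of_ne (N.nm_mem g r v).2 fun e => h ⟨v, e⟩).1]

/-- the flow, with fuel -/
noncomputable def flow : ℕ → Pt D → ℝ → Pt D
  | 0, _, _ => base D
  | n + 1, x, T => if T < 1 - ‖N.rp x‖ then N.pt (N.tp x) (fun v => N.rp x v + T)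
      else flow n (N.pt (N.tp x) fun v => N.rp x v + (1 - ‖N.rp x‖)) (T - (1 - ‖N.rp x‖))

theorem norm_rp_lt (x : Pt D) : ‖N.rp x‖ < 1 :=
  (pi_norm_lt_iff zero_lt_one).2 fun v => by
    rw [Real.norm_of_nonneg (N.rp_mem x v).1]; exact (N.rp_mem x v).2

theorem nm_rp (x : Pt D) : N.nm (N.tp x) (N.rp x) = N.rp x := by
  funext v
  unfold nm
  split_ifs with h
  · by_cases hv : v ∈ support x.t
    · rw [tp, N.d_top _ x.cl hv] at h
      split_ifs at h
      all_goals omega
    · simp only [rp, rr, if_neg hv]
  · exact clamp_of_mem (Ico_subset_Icc_self (N.rp_mem x v))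

theorem exists_max {g : A} (hg : g ≠ 1) (r : V → ℝ) :
    ∃ v, N.d g v ≠ 0 ∧ N.nm g r v = ‖N.nm g r‖ := by
  classical
  obtain ⟨v, hv, h⟩ := (Finset.univ.filter fun v => N.d g v ≠ 0).exists_max_image (N.nm g r) (by
    by_contra h
    exact hg (N.eq_one g fun v => by_contra fun hv => h ⟨v, by simpa using hv⟩))
  have h0 := (N.nm_mem g r v).1
  refine ⟨v, by simpa using hv, le_antisymm ?_ ((pi_norm_le_iff_of_nonneg h0).2 fun w => ?_)⟩
  · exact (le_abs_self _).trans (norm_le_pi_norm (N.nm g r) v)
  · rw [Real.norm_of_nonneg (N.nm_mem g r w).1]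
    by_cases hw : N.d g w = 0
    · rwa [nm, if_pos hw]
    · exact h w (by simpa using hw)

theorem tp_base : N.tp (base D) = 1 := by
  rw [← N.pt_one 0]
  exact (N.tp_pt 1 fun v => by simp [nm, N.d_one]).1

theorem flow_base (n : ℕ) (T : ℝ) : N.flow n (base D) T = base D := by
  induction n generalizing T with
  | zero => rfl
  | succ n ih => rw [flow, tp_base, pt_one, pt_one, ih, ite_self]

theorem len_next {g : A} (hg : g ≠ 1) (r : V → ℝ) :
    N.len (N.tp (N.pt g fun v => N.nm g r v + (1 - ‖N.nm g r‖))) < N.len g := by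
  obtain ⟨v, h1, h2⟩ := N.exists_max hg r
  refine (N.len_tp_le _ _).2 ⟨v, ?_⟩
  rw [nm, if_neg h1, h2, add_sub_cancel, clamp_of_mem ⟨zero_le_one, le_rfl⟩]

theorem eq_base {x : Pt D} (h : N.tp x = 1) : x = base D := by
  rw [← N.pt_tp x, h, pt_one]

theorem flow_succ (n : ℕ) {x : Pt D} (h : N.len (N.tp x) ≤ n) (T : ℝ) :
    N.flow (n + 1) x T = N.flow n x T := by
  induction n generalizing x T with
  | zero => rw [N.eq_base (N.eq_one_of_len (Nat.le_zero.1 h)), flow_base, flow_base]
  | succ n ih =>
    by_cases hx : N.tp x = 1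
    · rw [N.eq_base hx, flow_base, flow_base]
    · have := N.len_next hx (N.rp x)
      rw [nm_rp] at this
      rw [flow.eq_2 N x T (n + 1), ih (by omega), flow.eq_2]

theorem flow_of_le {n m : ℕ} {x : Pt D} (h : N.len (N.tp x) ≤ n) (hm : n ≤ m) (T : ℝ) :
    N.flow m x T = N.flow n x T := by
  induction m, hm using Nat.le_induction with
  | base => rfl
  | succ m hm ih => rw [N.flow_succ m (h.trans hm), ih]

theorem flow_zero (n : ℕ) {x : Pt D} (h : N.len (N.tp x) ≤ n) : N.flow n x 0 = x := by
  cases n with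
  | zero => exact (N.eq_base (N.eq_one_of_len (Nat.le_zero.1 h))).symm
  | succ n =>
    rw [flow, if_pos (by linarith [N.norm_rp_lt x])]
    simpa only [add_zero] using N.pt_tp x

theorem flow_large (n : ℕ) (x : Pt D) {T : ℝ} (h : n ≤ T) : N.flow n x T = base D := by
  induction n generalizing x T with
  | zero => rfl
  | succ n ih =>
    have h1 := norm_nonneg (N.rp x)
    have h2 : (0 : ℝ) ≤ n := Nat.cast_nonneg n
    push_cast at h
    rw [flow, if_neg (by linarith), ih _ (by linarith)]

theorem norm_nm_le (g : A) (r : V → ℝ) : ‖N.nm g r‖ ≤ 1 :=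
  (pi_norm_le_iff_of_nonneg zero_le_one).2 fun v => by
    rw [Real.norm_of_nonneg (N.nm_mem g r v).1]; exact (N.nm_mem g r v).2

theorem flow_pt (n : ℕ) {g : A} (hg : g ≠ 1) (h : N.len g ≤ n + 1) (r : V → ℝ) {T : ℝ}
    (hT : 0 ≤ T) :
    N.flow (n + 1) (N.pt g r) T = if 1 - ‖N.nm g r‖ ≤ T then
      N.flow n (N.pt g fun v => N.nm g r v + (1 - ‖N.nm g r‖)) (max (T - (1 - ‖N.nm g r‖)) 0)
      else N.pt g fun v => N.nm g r v + T := by
  rcases eq_or_lt_of_le (N.norm_nm_le g r) with h1 | h1
  · have h2 := N.len_next hg r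
    simp only [h1, sub_self, add_zero, sub_zero, pt_nm] at h2 ⊢
    rw [if_pos hT, max_eq_left hT, N.flow_succ n (by omega)]
  · obtain ⟨h2, h3⟩ := N.tp_pt g (r := r) fun v =>
      ((le_abs_self _).trans (norm_le_pi_norm (N.nm g r) v)).trans_lt h1
    rw [flow, h2, h3]
    by_cases h4 : 1 - ‖N.nm g r‖ ≤ T
    · rw [if_neg h4.not_gt, if_pos h4, max_eq_left (sub_nonneg.2 h4)]
    · rw [if_pos (not_le.1 h4), if_neg h4]

theorem continuous_flow {X : Type} [TopologicalSpace X] (n : ℕ) {g : A} (h : N.len g ≤ n)
    {r : X → V → ℝ} {T : X → ℝ} (hr : Continuous r) (hT : Continuous T) (h0 : ∀ x, 0 ≤ T x) :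
    Continuous fun x => N.flow n (N.pt g (r x)) (T x) := by
  classical
  induction n generalizing g r T with
  | zero => exact continuous_const
  | succ n ih =>
    by_cases hg : g = 1
    · simp only [hg, pt_one, flow_base]
      exact continuous_const
    simp only [N.flow_pt n hg h _ (h0 _)]
    have h1 : Continuous fun x => N.nm g (r x) := (N.continuous_nm g).comp hr
    have h2 : Continuous fun x => 1 - ‖N.nm g (r x)‖ := continuous_const.sub h1.norm
    refine Continuous.if_le ?_ ((N.continuous_pt g).comp (by fun_prop)) h2 hT fun x hx => ?_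
    · refine LocallyFinite.continuous (locallyFinite_of_finite
        fun v : {v // N.d g v ≠ 0} => {x | N.nm g (r x) v = ‖N.nm g (r x)‖}) ?_
        (fun v => isClosed_eq ((continuous_apply v.1).comp h1) h1.norm) fun v => ?_
      · refine eq_univ_of_forall fun x => ?_
        obtain ⟨v, h3, h4⟩ := N.exists_max hg (r x)
        exact mem_iUnion.2 ⟨⟨v, h3⟩, h4⟩
      · have h3 := (N.down g v v.2).1
        refine (ih (g := g * D.f v ^ (-N.d g v)) (by omega) (r := fun x w =>
          if w ≠ v ∧ N.d g w ≠ 0 then N.nm g (r x) w + (1 - ‖N.nm g (r x)‖) else 0)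
          (T := fun x => max (T x - (1 - ‖N.nm g (r x)‖)) 0) (continuous_pi fun w => ?_)
          ((hT.sub h2).max continuous_const) fun _ => le_max_right _ _).continuousOn.congr
          fun x hx => ?_
        · split_ifs
          · exact ((continuous_apply w).comp h1).add h2
          · exact continuous_const
        · have hx' : N.nm g (r x) v = ‖N.nm g (r x)‖ := hx
          simp only
          rw [N.pt_face g v.2 (by
            rw [hx', add_sub_cancel, clamp_of_mem ⟨zero_le_one, le_rfl⟩])]
    · have h3 := N.len_next hg (r x)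
      rw [← hx, sub_self, max_self, N.flow_zero n (by omega)]

include N in
theorem contractible : ContractibleSpace (Pt D) := by
  classical
  let H : Pt D → I → Pt D := fun x τ =>
    if τ = 1 then base D else N.flow (N.len (N.tp x)) x (τ / (1 - τ))
  have hH : ∀ g r (τ : I), H (N.pt g r) τ =
      N.flow (N.len g) (N.pt g r) (τ / max (1 - τ : ℝ) (1 / (N.len g + 1))) := by
    intro g r τ
    have h1 : (0 : ℝ) < N.len g + 1 := by positivity
    have h2 := (N.len_tp_le g r).1
    have h3 : (τ : ℝ) ≤ 1 := τ.2.2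
    by_cases h : 1 / (N.len g + 1 : ℝ) ≤ 1 - τ
    · have h4 : τ ≠ 1 := by
        rintro rfl
        have : (0 : ℝ) < 1 / (N.len g + 1) := by positivity
        simp at h
        linarith
      simp only [H, if_neg h4, max_eq_left h]
      exact (N.flow_of_le le_rfl h2 _).symm
    · push Not at h
      have h5 := (lt_div_iff₀ h1).1 h
      rw [max_eq_right h.le, N.flow_large _ _ (by rw [div_div_eq_mul_div, div_one]; linarith)]
      simp only [H]
      split_ifs with h4
      · rfl
      · have h6 : (0 : ℝ) < 1 - τ := sub_pos.2 (lt_of_le_of_ne h3 fun e => h4 (Subtype.ext e))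
        refine N.flow_large _ _ (le_trans (Nat.cast_le.2 h2) ?_)
        rw [le_div_iff₀ h6]
        linarith
  have hc : ∀ g, Continuous fun p : (V → ℝ) × I => H (N.pt g p.1) p.2 := by
    intro g
    simp only [hH]
    have h1 : ∀ τ : I, (0 : ℝ) < max (1 - τ : ℝ) (1 / (N.len g + 1)) := fun τ =>
      lt_max_of_lt_right (by positivity)
    exact N.continuous_flow _ le_rfl continuous_fst
      (Continuous.div (by fun_prop) (by fun_prop) fun p => (h1 _).ne')
      fun p => div_nonneg p.2.2.1 (h1 _).le
  let H' : Pt D → C(I, Pt D) := fun x => ⟨H x, by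
    have := (hc (N.tp x)).comp (Continuous.prodMk_right (N.rp x))
    simpa only [comp_def, pt_tp] using this⟩
  have hH' : Continuous H' := continuous_of_cube fun b σ =>
    ContinuousMap.continuous_of_continuous_uncurry _ (by
      have h1 : ∀ s, cube D b σ s = N.pt (N.top b σ.1) (N.rr b σ.1 (cut σ.1 s)) := fun s =>
        N.Q_eq_pt b σ.2 (support_cut _ _) (cut_mem _ _)
      have h2 : Continuous fun s => N.rr b σ.1 (cut σ.1 s) := by
        refine continuous_pi fun v => ?_
        unfold rr
        split_ifs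
        · exact continuous_cut _ _
        · exact continuous_const.sub (continuous_cut _ _)
        · exact continuous_const
      refine ((hc (N.top b σ.1)).comp (h2.prodMap continuous_id)).congr fun p => ?_
      change _ = H (cube D b σ p.1) p.2
      rw [h1]
      rfl)
  refine (contractible_iff_id_nullhomotopic _).2 ⟨base D, ⟨?_⟩⟩
  exact
    { toFun := fun p => H' p.2 p.1
      continuous_toFun := (hH'.comp continuous_snd).eval continuous_fst
      map_zero_left := fun x => by
        change H x 0 = x
        simpa [H] using N.flow_zero _ le_rfl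
      map_one_left := fun x => if_pos rfl }

end Desc

end Crest.Agent.Lib.RAAG
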