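import Mathlib

/-! The cube complex attached to a family of elements of a group commuting along the edges of a
finite graph. For the right-angled Artin group itself this is the universal cover of the Salvetti
complex. -/

set_option autoImplicit false

open Set Function Topology Filter

namespace Crest.Agent.Lib.RAAG

/-- a family of elements commuting along the edges of `Γ` -/
structure CD {V : Type} (Γ : SimpleGraph V) (B : Type) [Group B] where
  f : V → B
  comm : ∀ u v, Γ.Adj u v → Commute (f u) (f v)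

variable {V : Type} [Fintype V] {Γ : SimpleGraph V} {B : Type} [Group B]

/-- the monomial with exponents `n` -/
noncomputable def mono (f : V → B) (n : V → ℤ) : B :=
  ((Finset.univ : Finset V).toList.map fun v => f v ^ n v).prod

theorem list_prod_map_mul {ι : Type} (l : List ι) (a b : ι → B) (h : ∀ u v, Commute (b u) (a v)) :
    (l.map fun v => a v * b v).prod = (l.map a).prod * (l.map b).prod := by
  induction l with
  | nil => simp
  | cons x l ih =>
    have : Commute (b x) (l.map a).prod := Commute.list_prod_right _ _ fun y hy => by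
      obtain ⟨v, -, rfl⟩ := List.mem_map.1 hy
      exact h x v
    simp only [List.map_cons, List.prod_cons, ih]
    rw [mul_assoc, ← mul_assoc (b x), this.eq, mul_assoc, mul_assoc]

theorem CD.mono_add (D : CD Γ B) {σ : Set V} (hσ : Γ.IsClique σ) {n m : V → ℤ}
    (hn : support n ⊆ σ) (hm : support m ⊆ σ) : mono D.f (n + m) = mono D.f n * mono D.f m := by
  simp only [mono, Pi.add_apply, zpow_add]
  refine list_prod_map_mul _ _ _ fun u v => ?_
  by_cases hu : m u = 0
  · simp [hu]
  by_cases hv : n v = 0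
  · simp [hv]
  by_cases h : u = v
  · subst h; exact (Commute.refl _).zpow_zpow _ _
  · exact (D.comm _ _ (hσ (hm hu) (hn hv) h)).zpow_zpow _ _

theorem mono_zero (f : V → B) : mono f 0 = 1 := by simp [mono]

theorem mono_single [DecidableEq V] (f : V → B) (v : V) (k : ℤ) :
    mono f (Pi.single v k) = f v ^ k := by
  rw [mono, List.prod_map_eq_pow_single v _ fun w hw _ => by simp [hw],
    List.count_eq_one_of_mem (Finset.nodup_toList _) (by simp)]
  simp

theorem map_mono {B' : Type} [Group B'] (φ : B →* B') (f : V → B) (n : V → ℤ) :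
    φ (mono f n) = mono (fun v => φ (f v)) n := by
  simp [mono, map_list_prod, List.map_map, Function.comp_def]

/-- points of the cube complex: a base vertex and coordinates in a half-open cube -/
@[ext] structure Pt (D : CD Γ B) where
  b : B
  t : V → ℝ
  mem : ∀ v, t v ∈ Ico (0 : ℝ) 1
  cl : Γ.IsClique (support t)

variable (D : CD Γ B)

omit [Fintype V] in
theorem support_floor_subset (s : V → ℝ) : support (fun v => ⌊s v⌋) ⊆ support s :=
  fun v hv h => hv (by simp [h])

omit [Fintype V] in
theorem support_fract_subset (s : V → ℝ) : support (fun v => Int.fract (s v)) ⊆ support s :=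
  fun v hv h => hv (by simp [h])

/-- the point with coordinates `s` in the flat through `g` -/
noncomputable def Q (g : B) (s : V → ℝ) (hs : Γ.IsClique (support s)) : Pt D :=
  ⟨g * mono D.f fun v => ⌊s v⌋, fun v => Int.fract (s v),
    fun _ => ⟨Int.fract_nonneg _, Int.fract_lt_one _⟩, hs.subset (support_fract_subset s)⟩

variable {D}

theorem Q_self (x : Pt D) : Q D x.b x.t x.cl = x := by
  refine Pt.ext ?_ (funext fun v => Int.fract_eq_self.2 (x.mem v))
  have : (fun v => ⌊x.t v⌋) = 0 := funext fun v => Int.floor_eq_zero_iff.2 (x.mem v)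
  simp [Q, this, mono_zero]

theorem Q_shift {σ : Set V} (hσ : Γ.IsClique σ) (g : B) {s s' : V → ℝ} {n : V → ℤ}
    (hs : support s ⊆ σ) (hn : support n ⊆ σ) (h : ∀ v, s' v = s v + n v) (hs') :
    Q D g s' hs' = Q D (g * mono D.f n) s (hσ.subset hs) := by
  refine Pt.ext ?_ (funext fun v => by simp [Q, h])
  have : (fun v => ⌊s' v⌋) = n + fun v => ⌊s v⌋ := funext fun v => by simp [h, add_comm]
  simp only [Q, this]
  rw [D.mono_add hσ hn ((support_floor_subset s).trans hs), mul_assoc]

/-- clamp to the unit interval -/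
noncomputable def clamp (x : ℝ) : ℝ := max 0 (min x 1)

theorem continuous_clamp : Continuous clamp := by unfold clamp; fun_prop

theorem clamp_mem (x : ℝ) : clamp x ∈ Icc (0 : ℝ) 1 :=
  ⟨le_max_left _ _, max_le zero_le_one (min_le_right _ _)⟩

theorem clamp_of_mem {x : ℝ} (h : x ∈ Icc (0 : ℝ) 1) : clamp x = x := by
  rw [clamp, min_eq_left h.2, max_eq_right h.1]

/-- finite cliques -/
abbrev Clq (Γ : SimpleGraph V) := {σ : Finset V // Γ.IsClique (σ : Set V)}

open Classical in
/-- cut-off coordinates -/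
noncomputable def cut (σ : Finset V) (s : V → ℝ) : V → ℝ :=
  fun v => if v ∈ σ then clamp (s v) else 0

omit [Fintype V] in
theorem support_cut (σ : Finset V) (s : V → ℝ) : support (cut σ s) ⊆ σ :=
  fun _ hv => by_contra fun h => hv (if_neg h)

omit [Fintype V] in
theorem cut_mem (σ : Finset V) (s : V → ℝ) (v : V) : cut σ s v ∈ Icc (0 : ℝ) 1 := by
  unfold cut
  split_ifs
  · exact clamp_mem _
  · exact ⟨le_rfl, zero_le_one⟩

omit [Fintype V] in
theorem cut_eq {σ : Finset V} {s : V → ℝ} (h1 : support s ⊆ σ) (h2 : ∀ v, s v ∈ Icc (0 : ℝ) 1) :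
    cut σ s = s := by
  funext v
  unfold cut
  split_ifs with h
  · exact clamp_of_mem (h2 v)
  · exact (by_contra fun h' => h (h1 h') : s v = 0).symm

omit [Fintype V] in
theorem continuous_cut (σ : Finset V) (v : V) : Continuous fun s => cut σ s v := by
  unfold cut
  split_ifs
  · exact continuous_clamp.comp (continuous_apply v)
  · exact continuous_const

variable (D) in
/-- the closed cube with base vertex `g` and directions `σ` -/
noncomputable def cube (g : B) (σ : Clq Γ) (s : V → ℝ) : Pt D :=
  Q D g (cut σ.1 s) (σ.2.subset (support_cut _ _))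

noncomputable instance : TopologicalSpace (Pt D) :=
  ⨆ p : B × Clq Γ, TopologicalSpace.coinduced (cube D p.1 p.2) inferInstance

theorem continuous_cube (g : B) (σ : Clq Γ) : Continuous (cube D g σ) :=
  continuous_iSup_rng (i := (g, σ)) continuous_coinduced_rng

theorem continuous_of_cube {X : Type*} [TopologicalSpace X] {F : Pt D → X}
    (h : ∀ g σ, Continuous fun s => F (cube D g σ s)) : Continuous F :=
  continuous_iSup_dom.2 fun p => continuous_coinduced_dom.2 (h p.1 p.2)

theorem isOpen_of_cube {U : Set (Pt D)} (h : ∀ g σ, IsOpen (cube D g σ ⁻¹' U)) : IsOpen U :=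
  isOpen_iSup_iff.2 fun p => h p.1 p.2

open Classical in
/-- the directions of the open cube containing a point -/
noncomputable def Pt.supp (x : Pt D) : Clq Γ :=
  ⟨Finset.univ.filter fun v => x.t v ≠ 0, x.cl.subset fun v hv => by simpa using hv⟩

theorem Pt.mem_supp {x : Pt D} {v : V} : v ∈ x.supp.1 ↔ x.t v ≠ 0 := by simp [Pt.supp]

theorem cube_self (x : Pt D) : cube D x.b x.supp x.t = x := by
  have : cut x.supp.1 x.t = x.t :=
    cut_eq (fun v hv => Pt.mem_supp.2 hv) fun v => Ico_subset_Icc_self (x.mem v)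
  simp only [cube, this, Q_self]

/-! ### Charts -/

/-- the vertex nearest to `x` for the threshold `θ` -/
noncomputable def kap (θ : ℝ) (x : Pt D) : B :=
  x.b * mono D.f fun v => if θ < x.t v then 1 else 0

theorem isOpen_chart {θ : ℝ} (hθ : θ ∈ Ioo (0 : ℝ) 1) (k : B) :
    IsOpen {x : Pt D | (∀ v, x.t v ≠ θ) ∧ kap θ x = k} := by
  refine isOpen_of_cube fun g σ => ?_
  have h1 : ∀ y ∈ Icc (0 : ℝ) 1, (Int.fract y ≠ θ ↔ y ≠ θ) ∧
      ⌊y⌋ + (if θ < Int.fract y then 1 else 0) = if θ < y then 1 else 0 := by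
    intro y hy
    rcases eq_or_lt_of_le hy.2 with rfl | h
    · simp [hθ.1.ne, hθ.2.ne', hθ.1.le, hθ.2]
    · rw [Int.fract_eq_self.2 ⟨hy.1, h⟩, Int.floor_eq_zero_iff.2 ⟨hy.1, h⟩]
      simp
  have h2 : ∀ s, kap θ (cube D g σ s) = g * mono D.f fun v => if θ < cut σ.1 s v then 1 else 0 := by
    intro s
    simp only [kap, cube, Q]
    rw [mul_assoc, ← D.mono_add σ.2 ((support_floor_subset _).trans (support_cut _ _))]
    · congr 2
      funext v
      exact (h1 _ (cut_mem _ _ _)).2
    · intro v hv
      refine support_cut _ s fun h => hv ?_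
      simp [h, hθ.1.le]
  have h3 : ∀ s v, (cube D g σ s).t v ≠ θ ↔ cut σ.1 s v ≠ θ := fun s v => (h1 _ (cut_mem _ _ _)).1
  simp only [preimage_ofPred_eq, h2, h3]
  refine isOpen_iff_mem_nhds.2 fun s hs => ?_
  have h4 : ∀ᶠ s' in 𝓝 s, ∀ v, cut σ.1 s' v ≠ θ ∧ (θ < cut σ.1 s' v ↔ θ < cut σ.1 s v) := by
    refine eventually_all.2 fun v => ?_
    rcases lt_or_gt_of_ne (hs.1 v) with h | h
    · exact ((continuous_cut σ.1 v).continuousAt.eventually_lt continuousAt_const h).mono
        fun s' h' => ⟨h'.ne, iff_of_false h'.not_gt h.not_gt⟩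
    · exact (continuousAt_const.eventually_lt (continuous_cut σ.1 v).continuousAt h).mono
        fun s' h' => ⟨h'.ne', iff_of_true h' h⟩
  refine h4.mono fun s' h' => ⟨fun v => (h' v).1, ?_⟩
  rw [← hs.2]
  simp only [(h' _).2]

theorem exists_threshold (x : Pt D) : ∃ θ ∈ Ioo (0 : ℝ) 1, ∀ v, x.t v ≠ θ := by
  obtain ⟨θ, h1, h2⟩ := (Ioo_infinite (zero_lt_one' ℝ)).exists_notMem_finite (finite_range x.t)
  exact ⟨θ, h1, fun v h => h2 ⟨v, h⟩⟩

instance : T2Space (Pt D) := by
  refine ⟨fun x y hxy => ?_⟩
  by_cases h : x.t = y.t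
  · obtain ⟨θ, h1, h2⟩ := exists_threshold x
    refine ⟨_, _, isOpen_chart h1 (kap θ x), isOpen_chart h1 (kap θ y), ⟨h2, rfl⟩, ⟨h ▸ h2, rfl⟩,
      disjoint_left.2 fun z hz hz' => hxy (Pt.ext ?_ h)⟩
    have := hz.2.symm.trans hz'.2
    rwa [kap, kap, h, mul_left_inj] at this
  · obtain ⟨v, hv⟩ := Function.ne_iff.1 h
    have hc : Continuous fun z : Pt D => (z.t v : AddCircle (1 : ℝ)) := continuous_of_cube
      fun g σ => by
        simp only [cube, Q, AddCircle.coe_fract]
        exact (AddCircle.continuous_mk' _).comp (continuous_cut _ _)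
    refine separated_by_continuous hc fun e => hv ?_
    exact (AddCircle.coe_eq_coe_iff_of_mem_Ico (a := 0) (by simpa using x.mem v)
      (by simpa using y.mem v)).1 e

/-! ### The action and the covering -/

instance : MulAction B (Pt D) where
  smul h x := ⟨h * x.b, x.t, x.mem, x.cl⟩
  one_smul _ := Pt.ext (one_mul _) rfl
  mul_smul _ _ _ := Pt.ext (mul_assoc _ _ _) rfl

theorem smul_cube (h g : B) (σ : Clq Γ) (s : V → ℝ) : h • cube D g σ s = cube D (h * g) σ s :=
  Pt.ext (mul_assoc _ _ _).symm rfl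

instance : ContinuousConstSMul B (Pt D) where
  continuous_const_smul h := continuous_of_cube fun g σ => by
    simp only [smul_cube]
    exact continuous_cube _ _

variable {B' : Type} [Group B']

/-- the image family -/
def CD.map (D : CD Γ B) (φ : B →* B') : CD Γ B' :=
  ⟨fun v => φ (D.f v), fun u v h => (D.comm u v h).map φ⟩

/-- the map induced by a homomorphism -/
def proj (φ : B →* B') (x : Pt D) : Pt (D.map φ) := ⟨φ x.b, x.t, x.mem, x.cl⟩

theorem proj_cube (φ : B →* B') (g : B) (σ : Clq Γ) (s : V → ℝ) :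
    proj φ (cube D g σ s) = cube (D.map φ) (φ g) σ s :=
  Pt.ext (by simp only [proj, cube, Q, map_mul, map_mono]; rfl) rfl

theorem isQuotientCoveringMap_proj (φ : B →* B') (hφ : Surjective φ) :
    IsQuotientCoveringMap (proj φ : Pt D → Pt (D.map φ)) φ.ker where
  toIsQuotientMap := by
    have hc : Continuous (proj φ : Pt D → Pt (D.map φ)) := continuous_of_cube fun g σ => by
      simp only [proj_cube]
      exact continuous_cube _ _
    refine ⟨Topology.isCoinducing_iff.2 fun U => ⟨fun h => isOpen_of_cube fun g' σ => ?_,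
      fun h => h.preimage hc⟩, fun y => ?_⟩
    · obtain ⟨g, rfl⟩ := hφ g'
      have := h.preimage (continuous_cube (D := D) g σ)
      simpa only [preimage, mem_ofPred_eq, proj_cube] using this
    · obtain ⟨g, hg⟩ := hφ y.b
      exact ⟨⟨g, y.t, y.mem, y.cl⟩, Pt.ext hg rfl⟩
  toContinuousConstSMul := ⟨fun g => continuous_const_smul g.1⟩
  apply_eq_iff_mem_orbit := by
    intro x y
    constructor
    · intro h
      have h1 : φ x.b = φ y.b := congrArg Pt.b h
      have h2 : x.t = y.t := congrArg (fun z : Pt (D.map φ) => z.t) h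
      exact ⟨⟨x.b * y.b⁻¹, by simp [MonoidHom.mem_ker, h1]⟩,
        Pt.ext (inv_mul_cancel_right _ _) h2.symm⟩
    · rintro ⟨g, rfl⟩
      refine Pt.ext ?_ rfl
      change φ (g.1 * y.b) = φ y.b
      rw [map_mul, g.2, one_mul]
  disjoint x := by
    obtain ⟨θ, h1, h2⟩ := exists_threshold x
    refine ⟨_, (isOpen_chart h1 (kap θ x)).mem_nhds ⟨h2, rfl⟩, ?_⟩
    rintro g ⟨_, ⟨y, hy, rfl⟩, hy'⟩
    have h3 : kap θ (g • y) = g.1 * kap θ y := mul_assoc _ _ _
    have h4 := hy'.2
    rw [h3, hy.2, mul_eq_right] at h4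
    exact Subtype.ext h4

end Crest.Agent.Lib.RAAG
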