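import Crest.Agent.Lib.RAAG.Contract
import Crest.Agent.Lib.RAAG.Cells
import Crest.Prelude.Def_ClassifyingComplex

/-! Kernels of homomorphisms out of a right-angled Artin group have classifying complexes of
dimension the clique number of the graph. -/

set_option autoImplicit false

namespace Crest.Agent.Lib.RAAG

variable {V A : Type} [Group A] {Γ : SimpleGraph V} {of : V → A}

theorem IsRAAG.hasClassifyingComplex_ker [Finite V] (H : IsRAAG Γ of) {d : ℕ}
    (hd : ∀ σ : Finset V, Γ.IsClique (σ : Set V) → σ.card ≤ d) {B : Type} [Group B] (φ : A →* B)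
    (hφ : Function.Surjective φ) : Crest.Topology.HasClassifyingComplex φ.ker d := by
  have := Fintype.ofFinite V
  let D : CD Γ A := ⟨of, H.comm⟩
  obtain ⟨N⟩ := H.nonempty_desc
  have hc : ContractibleSpace (Pt D) := Desc.contractible (D := D) N
  obtain ⟨cw, hdim⟩ := exists_cw (D.map φ) (d := d) fun σ => hd σ.1 σ.2
  have hq := isQuotientCoveringMap_proj (D := D) φ hφ
  exact ⟨Pt (D.map φ), inferInstance, cw, inferInstance, hdim,
    ⟨Pt D, inferInstance, proj φ, hc, hq.isCoveringMap, hq.surjective⟩, proj φ (Desc.base D),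
    ⟨(hq.fundamentalGroupEquiv ⟨Desc.base D, rfl⟩).trans (MulEquiv.inv' φ.ker).symm⟩⟩

theorem IsRAAG.hasClassifyingComplex_ker_of_cliqueFree [Finite V] (H : IsRAAG Γ of) {d : ℕ}
    (hd : Γ.CliqueFree (d + 1)) {B : Type} [Group B] (φ : A →* B)
    (hφ : Function.Surjective φ) : Crest.Topology.HasClassifyingComplex φ.ker d := by
  refine H.hasClassifyingComplex_ker (fun σ hσ => ?_) φ hφ
  by_contra h
  obtain ⟨τ, h1, h2⟩ := Finset.exists_subset_card_eq (s := σ) (n := d + 1) (by omega)
  exact hd τ ⟨hσ.subset (Finset.coe_subset.2 h1), h2⟩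

theorem hasClassifyingComplex_of_mulEquiv {G G' : Type} [Group G] [Group G'] {d : ℕ}
    (e : G ≃* G') (h : Crest.Topology.HasClassifyingComplex G d) :
    Crest.Topology.HasClassifyingComplex G' d := by
  obtain ⟨X, _, cw, h1, h2, h3, x, ⟨f⟩⟩ := h
  exact ⟨X, _, cw, h1, h2, h3, x, ⟨f.trans e⟩⟩

end Crest.Agent.Lib.RAAG
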